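import Vale.Agent.P097.H324.Key
import Vale.Agent.P097.H128.Sector.Defs
import Vale.Agent.P097.H202.Prim

/-! # P097 / REG-B1: the Taylor coefficients of the label continue to convex sets -/

set_option linter.all false

open Complex Metric Filter Topology Set

namespace Vale.Agent.P097.H324

open Vale.Agent.P097.NZ Vale.Agent.P097.SC

/-- defect of the invariance equation of the truncated series -/
noncomputable def RR (f : ℕ → ℂ → ℂ) (S : ℂ × ℂ → ℂ × ℂ) (k : ℕ) (v : ℂ × ℂ) : ℂ :=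
  ∑ j ∈ Finset.range k, (f j (S v).1 * (S v).2 ^ j - f j v.1 * v.2 ^ j)

theorem analyticAt_RR {f : ℕ → ℂ → ℂ} {S : ℂ × ℂ → ℂ × ℂ} {k : ℕ} {x : ℂ}
    (hS : AnalyticAt ℂ S (x, 0)) (hS0 : S (x, 0) = (x, 0)) (hf : ∀ j < k, AnalyticAt ℂ (f j) x) :
    AnalyticAt ℂ (RR f S k) (x, 0) := by
  have h : AnalyticAt ℂ (fun v => ∑ j ∈ Finset.range k,
      (f j (S v).1 * (S v).2 ^ j - f j v.1 * v.2 ^ j)) (x, 0) := by
    refine Finset.analyticAt_fun_sum _ fun j hj => ?_
    have hfj := hf j (Finset.mem_range.1 hj)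
    have e1 : (S (x, 0)).1 = x := by rw [hS0]
    have hS2 : AnalyticAt ℂ (fun v => (S v).2) (x, 0) := analyticAt_snd.comp hS
    have h1 : AnalyticAt ℂ (fun v : ℂ × ℂ => f j (S v).1) (x, 0) :=
      AnalyticAt.comp_of_eq (g := f j) (f := fun v => (S v).1) hfj (analyticAt_fst.comp hS) e1
    have h2 : AnalyticAt ℂ (fun v : ℂ × ℂ => f j v.1) (x, 0) :=
      AnalyticAt.comp_of_eq (g := f j) (f := fun v : ℂ × ℂ => v.1) hfj analyticAt_fst rfl
    exact (h1.mul (hS2.pow j)).sub (h2.mul (analyticAt_snd.pow j))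
  exact h

theorem regB1 (hA : RegA) : RegB1 := by
  intro Φ q c V x₁ F hc hV hcv hcrv hx₁ hL
  set S : ℂ × ℂ → ℂ × ℂ := SX Φ q c with hSd
  have hS : ∀ x ∈ V, AnalyticAt ℂ S (x, 0) ∧ ∃ r > 0, ∃ M : ℝ, ∀ η : ℂ, ‖η‖ < r →
      ‖(S (x, η)).1 - (x + 2 * η)‖ ≤ M * ‖η‖ ^ 2 ∧ ‖(S (x, η)).2 - η‖ ≤ M * ‖η‖ ^ 2 := by
    intro x hx
    obtain ⟨h1, ⟨r, hr, M, h2⟩, -⟩ := hA Φ q c x hc (hcrv x hx)
    exact ⟨h1, r, hr, M, fun η hη => h2 x η (by simpa using hr) hη⟩
  have hS0 : ∀ x ∈ V, S (x, 0) = (x, 0) := by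
    intro x hx
    obtain ⟨-, r, hr, M, h2⟩ := hS x hx
    obtain ⟨h3, h4⟩ := h2 0 (by simpa using hr)
    refine Prod.ext ?_ ?_
    · simpa [sub_eq_zero] using h3
    · simpa [sub_eq_zero] using h4
  have hg : ∀ᶠ z in 𝓝 x₁, z ∈ V ∧ AnalyticAt ℂ F (z, 0) ∧
      (∀ᶠ v in 𝓝 ((z, 0) : ℂ × ℂ), F (S v) = F v) ∧ tc F 0 z = 0 ∧ tc F 1 z = 2 := by
    have h1 := eventually_axis hL.an.eventually_analyticAt
    have h2 := eventually_axis (eventually_eventually_nhds.2 hL.inv)
    have h3 := eventually_axis hL.odd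
    filter_upwards [hV.mem_nhds hx₁, h1, h2, h3, hL.nrm] with z z1 z2 z3 z4 z5
    refine ⟨z1, z2, z3, ?_, ?_⟩
    · simp only [tc, iteratedDeriv_zero, Nat.factorial_zero, Nat.cast_one, div_one]
      simp only [neg_zero] at z4
      have : (2 : ℂ) * F (z, 0) = 0 := by linear_combination z4
      simpa using this
    · simp only [tc, iteratedDeriv_one, Nat.factorial_one, Nat.cast_one, div_one]
      exact z5
  have hkey : ∀ z, z ∈ V → AnalyticAt ℂ F (z, 0) → (∀ᶠ v in 𝓝 ((z, 0) : ℂ × ℂ), F (S v) = F v) →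
      ∀ k, tc (RR (tc F) S k) (k + 1) z = -(2 * deriv (tc F k) z +
        k * deriv (dslope (fun η => (S (z, η)).2) 0) 0 * tc F k z) := by
    intro z hz hFz hinv k
    obtain ⟨h1, r, hr, M, h2⟩ := hS z hz
    have h3 : AnalyticAt ℂ (fun η : ℂ => S (z, η)) 0 := by
      have h1 : AnalyticAt ℂ (fun δ : ℂ => ((z, δ) : ℂ × ℂ)) 0 :=
        analyticAt_const.prod analyticAt_id
      exact AnalyticAt.comp_of_eq (g := S) (f := fun δ : ℂ => ((z, δ) : ℂ × ℂ)) (hS z hz).1 h1 rfl
    have tz : Tendsto (fun η : ℂ => ((z, η) : ℂ × ℂ)) (𝓝 0) (𝓝 (z, 0)) := by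
      have : Continuous (fun η : ℂ => ((z, η) : ℂ × ℂ)) := by fun_prop
      exact this.tendsto 0
    exact key h3 hr h2 hFz (tz.eventually hinv) k
  have hrec : ∀ᶠ z in 𝓝 x₁, ∀ k, tc (RR (tc F) S k) (k + 1) z = -(2 * deriv (tc F k) z) := by
    filter_upwards [hg, eventually_eventually_nhds.2 hg] with z hz hzz
    obtain ⟨z1, z2, z3, z4, z5⟩ := hz
    have hb : deriv (dslope (fun η => (S (z, η)).2) 0) 0 = 0 := by
      have h1 := hkey z z1 z2 z3 1
      have h2 : deriv (tc F 1) z = 0 := by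
        have h3 : tc F 1 =ᶠ[𝓝 z] fun _ => (2 : ℂ) := by
          filter_upwards [hzz] with z' hz' using hz'.2.2.2.2
        rw [h3.deriv_eq, deriv_const]
      have h4 : tc (RR (tc F) S 1) (1 + 1) z = 0 := by
        have h5 : ∀ᶠ v in 𝓝 ((z, 0) : ℂ × ℂ), RR (tc F) S 1 v = (fun _ => (0 : ℂ)) v := by
          have h6 : Tendsto (fun v : ℂ × ℂ => (S v).1) (𝓝 (z, 0)) (𝓝 z) := by
            have := (AnalyticAt.comp (g := Prod.fst) (f := S) analyticAt_fst (hS z z1).1).continuousAt
            have h7 : (S (z, 0)).1 = z := by rw [hS0 z z1]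
            simp only [ContinuousAt, Function.comp, h7] at this
            exact this
          have h8 : Tendsto (fun v : ℂ × ℂ => v.1) (𝓝 (z, 0)) (𝓝 z) :=
            continuous_fst.tendsto ((z, 0) : ℂ × ℂ)
          filter_upwards [h6.eventually hzz, h8.eventually hzz] with v v1 v2
          simp [RR, v1.2.2.2.1, v2.2.2.2.1]
        have h9 := (tc_congr h5).self_of_nhds (1 + 1)
        rw [h9]
        simp [tc, iteratedDeriv_const]
      rw [h4, h2, z5] at h1
      have h5 : (2 : ℂ) * deriv (dslope (fun η => (S (z, η)).2) 0) 0 = 0 := by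
        push_cast at h1
        linear_combination h1
      simpa using h5
    intro k
    rw [hkey z z1 z2 z3 k, hb]
    ring
  have main : ∀ k, ∃ f : ℂ → ℂ, DifferentiableOn ℂ f V ∧ ∀ᶠ z in 𝓝 x₁, f z = tc F k z := by
    intro k
    induction k using Nat.strong_induction_on with
    | _ k ih =>
      obtain ⟨f, hf⟩ : ∃ f : ℕ → ℂ → ℂ, ∀ j < k, DifferentiableOn ℂ (f j) V ∧
          ∀ᶠ z in 𝓝 x₁, f j z = tc F j z := by
        choose! f hf using ih
        exact ⟨f, hf⟩
      have hfa : ∀ x ∈ V, ∀ j < k, AnalyticAt ℂ (f j) x := fun x hx j hj =>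
        (hf j hj).1.analyticAt (hV.mem_nhds hx)
      have hRa : ∀ x ∈ V, AnalyticAt ℂ (RR f S k) (x, 0) := fun x hx =>
        analyticAt_RR (hS x hx).1 (hS0 x hx) (hfa x hx)
      have hgd : DifferentiableOn ℂ (fun x => -(1 / 2) * tc (RR f S k) (k + 1) x) V := by
        intro x hx
        exact (analyticAt_const.mul (analyticAt_tc (hRa x hx) (k + 1))).differentiableAt.differentiableWithinAt
      obtain ⟨G, hG⟩ := H202.prim_convex hV hcv hgd
      refine ⟨fun z => G z - G x₁ + tc F k x₁, ?_, ?_⟩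
      · intro z hz
        exact (((hG z hz).differentiableAt.sub_const _).add_const _).differentiableWithinAt
      · have hfe : ∀ᶠ z in 𝓝 x₁, ∀ j < k, f j z = tc F j z := by
          have : ∀ᶠ z in 𝓝 x₁, ∀ j ∈ Finset.range k, f j z = tc F j z :=
            (Finset.range k).eventually_all.2 fun j hj => (hf j (Finset.mem_range.1 hj)).2
          filter_upwards [this] with z hz j hj using hz j (Finset.mem_range.2 hj)
        have hall : ∀ᶠ z in 𝓝 x₁, z ∈ V ∧ AnalyticAt ℂ (tc F k) z ∧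
            -(1 / 2) * tc (RR f S k) (k + 1) z = deriv (tc F k) z := by
          filter_upwards [hrec, hg, eventually_eventually_nhds.2 hfe] with z z1 z2 z3
          refine ⟨z2.1, analyticAt_tc z2.2.1 k, ?_⟩
          have h5 : ∀ᶠ v in 𝓝 ((z, 0) : ℂ × ℂ), RR f S k v = RR (tc F) S k v := by
            have h6 : Tendsto (fun v : ℂ × ℂ => (S v).1) (𝓝 (z, 0)) (𝓝 z) := by
              have := (AnalyticAt.comp (g := Prod.fst) (f := S) analyticAt_fst (hS z z2.1).1).continuousAt
              have h7 : (S (z, 0)).1 = z := by rw [hS0 z z2.1]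
              simp only [ContinuousAt, Function.comp, h7] at this
              exact this
            have h8 : Tendsto (fun v : ℂ × ℂ => v.1) (𝓝 (z, 0)) (𝓝 z) :=
              continuous_fst.tendsto ((z, 0) : ℂ × ℂ)
            filter_upwards [h6.eventually z3, h8.eventually z3] with v v1 v2
            refine Finset.sum_congr rfl fun j hj => ?_
            rw [v1 j (Finset.mem_range.1 hj), v2 j (Finset.mem_range.1 hj)]
          have h9 := (tc_congr h5).self_of_nhds (k + 1)
          rw [h9, z1 k]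
          ring
        obtain ⟨ρ, hρ, hb⟩ := Metric.eventually_nhds_iff_ball.1 hall
        have heq : Set.EqOn (fun z => G z - G x₁ + tc F k x₁) (tc F k) (ball x₁ ρ) := by
          refine isOpen_ball.eqOn_of_deriv_eq (convex_ball x₁ ρ).isPreconnected ?_ ?_ ?_
            (mem_ball_self hρ) ?_
          · intro z hz
            exact (((hG z (hb z hz).1).differentiableAt.sub_const _).add_const _).differentiableWithinAt
          · intro z hz
            exact (hb z hz).2.1.differentiableAt.differentiableWithinAt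
          · intro z hz
            rw [(((hG z (hb z hz).1).sub_const (G x₁)).add_const (tc F k x₁)).deriv]
            exact (hb z hz).2.2
          · simp
        filter_upwards [ball_mem_nhds x₁ hρ] with z hz
        exact heq hz
  choose f hf using main
  refine ⟨f, fun k => (hf k).1, ?_⟩
  have hall : ∀ᶠ z in 𝓝 x₁, z ∈ V ∧ ∀ k, AnalyticAt ℂ (tc F k) z := by
    filter_upwards [hg] with z hz
    exact ⟨hz.1, fun k => analyticAt_tc hz.2.1 k⟩
  obtain ⟨ρ, hρ, hb⟩ := Metric.eventually_nhds_iff_ball.1 hall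
  filter_upwards [ball_mem_nhds x₁ hρ] with z hz k
  have h1 : AnalyticOnNhd ℂ (f k) (ball x₁ ρ) := fun z hz =>
    (hf k).1.analyticAt (hV.mem_nhds (hb z hz).1)
  have h2 : AnalyticOnNhd ℂ (tc F k) (ball x₁ ρ) := fun z hz => (hb z hz).2 k
  exact h1.eqOn_of_preconnected_of_eventuallyEq h2 (convex_ball x₁ ρ).isPreconnected
    (mem_ball_self hρ) (hf k).2 hz

end Vale.Agent.P097.H324
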