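import Vale.Agent.P097.H128.NZ.TC

/-! # P097 / REG-B1: the recursion for the Taylor coefficients of a first integral -/

set_option linter.all false

open Complex Metric Filter Topology Set

namespace Vale.Agent.P097.H324

open Vale.Agent.P097.NZ

theorem co_pow_mul {D : ℂ → ℂ} (hD : AnalyticAt ℂ D 0) (n : ℕ) :
    iteratedDeriv (n + 1) (fun η : ℂ => η ^ n * D η) 0 / ((n + 1).factorial : ℂ) = deriv D 0 := by
  have h1 : ContDiffAt ℂ (n + 1 : ℕ) (fun η : ℂ => η ^ n) 0 := by fun_prop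
  have h2 : ContDiffAt ℂ (n + 1 : ℕ) D 0 := hD.contDiffAt
  have h3 := iteratedDeriv_fun_mul h1 h2
  rw [h3, Finset.sum_eq_single_of_mem n (Finset.mem_range.2 (by omega))]
  · rw [iteratedDeriv_fun_pow_zero, if_pos rfl]
    have e1 : n + 1 - n = 1 := by omega
    rw [e1, iteratedDeriv_one, Nat.choose_succ_self_right]
    have h4 : ((n + 1).factorial : ℂ) ≠ 0 := by exact_mod_cast (n + 1).factorial_ne_zero
    rw [div_eq_iff h4, Nat.factorial_succ]
    push_cast
    ring
  · intro i _ hi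
    rw [iteratedDeriv_fun_pow_zero, if_neg hi]
    simp

/-- Taylor expansion in the second variable with analytic remainder -/
theorem exists_rem {F : ℂ × ℂ → ℂ} {z : ℂ} (hF : AnalyticAt ℂ F (z, 0)) (k : ℕ) :
    ∃ G : ℂ × ℂ → ℂ, AnalyticAt ℂ G (z, 0) ∧ ∀ᶠ v in 𝓝 ((z, 0) : ℂ × ℂ),
      F v = ∑ j ∈ Finset.range k, tc F j v.1 * v.2 ^ j + v.2 ^ k * G v := by
  obtain ⟨C, B, r, hB, hr, -, h⟩ := tc_bound hF
  refine ⟨Sm (fun j => tc F (j + k)), ?_, ?_⟩
  · refine analyticAt_Sm ?_ ⟨C * B ^ k, B, r, hB, hr, fun z' hz' j => ?_⟩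
    · filter_upwards [eventually_analyticAt_tc hF] with z' hz' j
      exact hz' _
    · refine ((h z' hz').1 (j + k)).trans (le_of_eq ?_)
      rw [pow_add]
      ring
  · refine eventually_of_polydisc hr hr fun z' hz' δ hδ => ?_
    have h1 := (h z' hz').2 δ hδ
    have h2 := (hasSum_nat_add_iff' k).2 h1
    by_cases h0 : δ = 0
    · subst h0
      rcases Nat.eq_zero_or_pos k with hk | hk
      · subst hk
        simp only [Finset.range_zero, Finset.sum_empty, zero_add, pow_zero, one_mul, add_zero]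
        exact h1.tsum_eq.symm
      · rw [zero_pow hk.ne', zero_mul, add_zero]
        have h3 : HasSum (fun j : ℕ => tc F j z' * (0 : ℂ) ^ j) (tc F 0 z' * (0 : ℂ) ^ 0) :=
          hasSum_single 0 (fun j hj => by rw [zero_pow hj, mul_zero])
        rw [h1.unique h3, Finset.sum_eq_single_of_mem 0 (Finset.mem_range.2 hk)]
        intro j _ hj
        rw [zero_pow hj, mul_zero]
    · have h3 : HasSum (fun j : ℕ => tc F (j + k) z' * δ ^ j)
          ((F (z', δ) - ∑ j ∈ Finset.range k, tc F j z' * δ ^ j) / δ ^ k) := by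
        have h4 := h2.div_const (δ ^ k)
        have h7 : (fun j : ℕ => tc F (j + k) z' * δ ^ j) =
            fun j : ℕ => tc F (j + k) z' * δ ^ (j + k) / δ ^ k := by
          funext j
          rw [pow_add, ← mul_assoc, mul_div_assoc, div_self (pow_ne_zero _ h0), mul_one]
        rw [h7]
        exact h4
      have h5 : Sm (fun j => tc F (j + k)) (z', δ) = _ := h3.tsum_eq
      rw [h5]
      have h6 : δ ^ k ≠ 0 := pow_ne_zero _ h0
      field_simp
      ring

/-- **the recursion**: `s` = slice of the map, `(z + 2 η + .., η + ..)` -/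
theorem key {s : ℂ → ℂ × ℂ} {F : ℂ × ℂ → ℂ} {z : ℂ} {M r : ℝ} (hs : AnalyticAt ℂ s 0) (hr : 0 < r)
    (hb : ∀ η : ℂ, ‖η‖ < r → ‖(s η).1 - (z + 2 * η)‖ ≤ M * ‖η‖ ^ 2 ∧
      ‖(s η).2 - η‖ ≤ M * ‖η‖ ^ 2)
    (hF : AnalyticAt ℂ F (z, 0)) (hinv : ∀ᶠ η in 𝓝 (0 : ℂ), F (s η) = F (z, η)) (k : ℕ) :
    iteratedDeriv (k + 1) (fun η => ∑ j ∈ Finset.range k,
      (tc F j (s η).1 * (s η).2 ^ j - tc F j z * η ^ j)) 0 / ((k + 1).factorial : ℂ) =
      -(2 * deriv (tc F k) z + k * deriv (dslope (fun η => (s η).2) 0) 0 * tc F k z) := by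
  have hs1 : AnalyticAt ℂ (fun η => (s η).1) 0 := analyticAt_fst.comp hs
  have hs2 : AnalyticAt ℂ (fun η => (s η).2) 0 := analyticAt_snd.comp hs
  have b0 := hb 0 (by simpa using hr)
  have e1 : (s 0).1 = z := by
    have := b0.1
    simp only [norm_zero, ne_eq, OfNat.ofNat_ne_zero, not_false_eq_true, zero_pow, mul_zero,
      add_zero, norm_le_zero_iff, sub_eq_zero] at this
    exact this
  have e2 : (s 0).2 = 0 := by
    have := b0.2
    simp only [norm_zero, ne_eq, OfNat.ofNat_ne_zero, not_false_eq_true, zero_pow, mul_zero,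
      sub_zero, norm_le_zero_iff] at this
    exact this
  have hlo : ∀ g : ℂ → ℂ, (∀ η : ℂ, ‖η‖ < r → ‖g η‖ ≤ M * ‖η‖ ^ 2) → HasDerivAt g 0 0 := by
    intro g hg
    have g0 : g 0 = 0 := by
      have := hg 0 (by simpa using hr)
      simpa using this
    rw [hasDerivAt_iff_isLittleO]
    have h1 : (fun η : ℂ => g η) =O[𝓝 0] fun η : ℂ => η ^ 2 := by
      refine Asymptotics.IsBigO.of_bound M ?_
      filter_upwards [ball_mem_nhds (0 : ℂ) hr] with η hη
      rw [norm_pow]
      exact hg η (by simpa using hη)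
    have h2 : (fun η : ℂ => η ^ 2) =o[𝓝 0] fun η : ℂ => η := by
      have := Asymptotics.isLittleO_pow_pow (𝕜 := ℂ) (m := 1) (n := 2) (by norm_num)
      simpa using this
    have h3 := h1.trans_isLittleO h2
    refine (h3.congr_left ?_).congr_right ?_
    · intro η; simp [g0]
    · intro η; simp
  have d1 : HasDerivAt (fun η => (s η).1) 2 0 := by
    have h1 := (hlo (fun η => (s η).1 - (z + 2 * η)) fun η hη => (hb η hη).1)
    have h2 := h1.add (((hasDerivAt_id (0 : ℂ)).const_mul 2).const_add z)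
    have h3 : HasDerivAt ((fun η => (s η).1 - (z + 2 * η)) + fun x => z + 2 * id x) (0 + 2 * 1) 0 := h2
    have h4 : ((fun η => (s η).1 - (z + 2 * η)) + fun x => z + 2 * id x) = fun η => (s η).1 := by
      funext η
      simp
    rw [h4] at h3
    simpa using h3
  have d2 : HasDerivAt (fun η => (s η).2) 1 0 := by
    have h1 := (hlo (fun η => (s η).2 - η) fun η hη => (hb η hη).2)
    have h2 := h1.add (hasDerivAt_id (0 : ℂ))
    have h4 : ((fun η => (s η).2 - η) + id) = fun η => (s η).2 := by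
      funext η
      simp
    rw [h4] at h2
    simpa using h2
  set u : ℂ → ℂ := dslope (fun η => (s η).2) 0 with hu
  have hua : AnalyticAt ℂ u 0 := by
    obtain ⟨p, hp⟩ := hs2
    exact ⟨_, hp.has_fpower_series_dslope_fslope⟩
  have hu0 : u 0 = 1 := by
    rw [hu, dslope_same]
    exact d2.deriv
  have hsu : ∀ η, (s η).2 = η * u η := by
    intro η
    have h1 := sub_smul_dslope (fun η => (s η).2) 0 η
    simp only [sub_zero, e2, smul_eq_mul] at h1
    exact h1.symm
  obtain ⟨G, hG, hGe⟩ := exists_rem hF (k + 1)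
  have hs0 : s 0 = (z, 0) := Prod.ext e1 e2
  have ts : Tendsto s (𝓝 0) (𝓝 (z, 0)) := by
    rw [← hs0]; exact hs.continuousAt
  have tz : Tendsto (fun η : ℂ => ((z, η) : ℂ × ℂ)) (𝓝 0) (𝓝 (z, 0)) := by
    have : Continuous (fun η : ℂ => ((z, η) : ℂ × ℂ)) := by fun_prop
    exact this.tendsto 0
  set D : ℂ → ℂ := fun η => -(tc F k (s η).1 * u η ^ k - tc F k z) -
    η * (u η ^ (k + 1) * G (s η) - G (z, η)) with hD
  have hGs : AnalyticAt ℂ (fun η => G (s η)) 0 := by
    refine AnalyticAt.comp_of_eq (g := G) (f := s) hG hs hs0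
  have hGz : AnalyticAt ℂ (fun η => G (z, η)) 0 := analyticAt_pair2 hG
  have hfk : AnalyticAt ℂ (tc F k) z := analyticAt_tc hF k
  have hfs : AnalyticAt ℂ (fun η => tc F k (s η).1) 0 :=
    AnalyticAt.comp_of_eq (g := tc F k) (f := fun η => (s η).1) hfk hs1 e1
  have hDa : AnalyticAt ℂ D 0 :=
    ((hfs.mul (hua.pow k)).sub analyticAt_const).neg.sub
      (analyticAt_id.mul (((hua.pow (k + 1)).mul hGs).sub hGz))
  have hev : (fun η => ∑ j ∈ Finset.range k,
      (tc F j (s η).1 * (s η).2 ^ j - tc F j z * η ^ j)) =ᶠ[𝓝 0] fun η => η ^ k * D η := by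
    filter_upwards [hinv, ts.eventually hGe, tz.eventually hGe] with η h1 h2 h3
    rw [h2, h3, Finset.sum_range_succ, Finset.sum_range_succ] at h1
    simp only [hD]
    rw [Finset.sum_sub_distrib]
    have h4 : (s η).2 ^ k = η ^ k * u η ^ k := by rw [hsu η, mul_pow]
    have h5 : (s η).2 ^ (k + 1) = η ^ (k + 1) * u η ^ (k + 1) := by rw [hsu η, mul_pow]
    simp only [h4, h5] at h1 ⊢
    linear_combination h1
  rw [hev.iteratedDeriv_eq (k + 1), co_pow_mul hDa k]
  have hu' : HasDerivAt u (deriv u 0) 0 := hua.differentiableAt.hasDerivAt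
  have dfs : HasDerivAt (fun η => tc F k (s η).1) (deriv (tc F k) z * 2) 0 := by
    have h1 : HasDerivAt (tc F k) (deriv (tc F k) z) ((s 0).1) := by
      rw [e1]; exact hfk.differentiableAt.hasDerivAt
    exact h1.comp (0 : ℂ) d1
  have dE : HasDerivAt (fun η => u η ^ (k + 1) * G (s η) - G (z, η))
      (deriv (fun η => u η ^ (k + 1) * G (s η) - G (z, η)) 0) 0 :=
    (((hua.pow (k + 1)).mul hGs).sub hGz).differentiableAt.hasDerivAt
  have hDd := ((dfs.mul (hu'.pow k)).sub_const (tc F k z)).neg.sub ((hasDerivAt_id (0 : ℂ)).mul dE)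
  have hDd' : deriv D 0 = _ := hDd.deriv
  rw [hDd']
  simp only [hu0, Pi.pow_apply, one_pow, hs0, id, mul_one, one_mul, zero_mul, add_zero, sub_self]
  ring

end Vale.Agent.P097.H324
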